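import Mathlib

/-!
# S0112, package B: the Fourier kernel

`exists_kernel`: there is a universal constant `C₀` such that for every centre `s` and every
`δ > 0` there is a continuous integrable `f : ℝ → ℂ` with `∫ ‖f‖ ≤ C₀` whose Fourier integral
`u ↦ ∫ f t * exp (I * (t * u))` is a real bump `F` with `0 ≤ F ≤ 1`, `F = 1` on
`[s - δ, s + δ]` and `F = 0` off `[s - 2δ, s + 2δ]`.

Mathlib only (Schwartz functions + Fourier inversion); no explicit integral is computed.
-/

open MeasureTheory Real Complex FourierTransform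
open scoped SchwartzMap ContDiff

namespace Crest.Agent.Helper4.S0112

/-- The base bump on `ℝ`: equal to `1` on `[-1, 1]`, supported in `[-2, 2]`. -/
noncomputable def bump0 : ContDiffBump (0 : ℝ) := ⟨1, 2, one_pos, one_lt_two⟩

/-- The base bump as a complex-valued function. -/
noncomputable def psi0 : ℝ → ℂ := fun u => ((bump0 u : ℝ) : ℂ)

lemma psi0_contDiff : ContDiff ℝ ∞ psi0 :=
  Complex.ofRealCLM.contDiff.comp bump0.contDiff

lemma psi0_hasCompactSupport : HasCompactSupport psi0 :=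
  bump0.hasCompactSupport.comp_left Complex.ofReal_zero

/-- The base bump as a Schwartz function. -/
noncomputable def Psi0 : 𝓢(ℝ, ℂ) := psi0_hasCompactSupport.toSchwartzMap psi0_contDiff

/-- The Fourier transform (Mathlib normalisation) of the base bump. -/
noncomputable def ghat : ℝ → ℂ := 𝓕 psi0

lemma ghat_eq : ghat = ⇑(𝓕 Psi0 : 𝓢(ℝ, ℂ)) := rfl

lemma psi0_integrable : Integrable psi0 :=
  (Psi0.integrable (μ := volume))

lemma ghat_integrable : Integrable ghat := by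
  rw [ghat_eq]; exact (𝓕 Psi0 : 𝓢(ℝ, ℂ)).integrable (μ := volume)

lemma ghat_continuous : Continuous ghat := by
  rw [ghat_eq]; exact (𝓕 Psi0 : 𝓢(ℝ, ℂ)).continuous

lemma fourierInv_ghat : 𝓕⁻ ghat = psi0 :=
  Continuous.fourierInv_fourier_eq psi0_contDiff.continuous psi0_integrable ghat_integrable

/-- Fourier inversion for the base bump, as an explicit integral. -/
lemma integral_ghat (w : ℝ) :
    ∫ v : ℝ, ghat v * Complex.exp (Complex.I * ((2 * π * (v * w) : ℝ) : ℂ)) = psi0 w := by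
  have h := congrFun fourierInv_ghat w
  rw [Real.fourierInv_eq'] at h
  rw [← h]
  congr 1
  ext v
  simp only [smul_eq_mul]
  rw [mul_comm]
  congr 2
  simp [mul_comm]

/-- The universal constant: the `L¹` norm of the Fourier transform of the base bump. -/
noncomputable def kernelConst : ℝ := ∫ v : ℝ, ‖ghat v‖

/-- The kernel with centre `s` and width `δ`. -/
noncomputable def kernel (s δ : ℝ) (t : ℝ) : ℂ :=
  ((δ / (2 * π) : ℝ) : ℂ) * ghat (δ / (2 * π) * t) *
    Complex.exp (-(Complex.I * ((s * t : ℝ) : ℂ)))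

/-- The bump with centre `s` and width `δ`. -/
noncomputable def bumpAt (s δ : ℝ) (u : ℝ) : ℝ := bump0 ((u - s) / δ)

lemma kernel_continuous (s δ : ℝ) : Continuous (kernel s δ) := by
  unfold kernel
  have := ghat_continuous
  fun_prop

lemma norm_kernel (s δ : ℝ) (hδ : 0 < δ) (t : ℝ) :
    ‖kernel s δ t‖ = δ / (2 * π) * ‖ghat (δ / (2 * π) * t)‖ := by
  have ha : 0 < δ / (2 * π) := by positivity
  unfold kernel
  rw [norm_mul, norm_mul, Complex.norm_real, Real.norm_of_nonneg ha.le]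
  have : ‖Complex.exp (-(Complex.I * ((s * t : ℝ) : ℂ)))‖ = 1 := by
    rw [Complex.norm_exp]; simp
  rw [this, mul_one]

lemma kernel_integrable (s δ : ℝ) (hδ : 0 < δ) : Integrable (kernel s δ) := by
  have ha : 0 < δ / (2 * π) := by positivity
  have h1 : Integrable (fun t : ℝ => ghat (δ / (2 * π) * t)) :=
    ghat_integrable.comp_mul_left' ha.ne'
  refine Integrable.mono' (h1.norm.const_mul (δ / (2 * π)))
    (kernel_continuous s δ).aestronglyMeasurable (Filter.Eventually.of_forall fun t => ?_)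
  rw [norm_kernel s δ hδ t]

lemma integral_norm_kernel (s δ : ℝ) (hδ : 0 < δ) :
    ∫ t : ℝ, ‖kernel s δ t‖ = kernelConst := by
  have ha : 0 < δ / (2 * π) := by positivity
  simp_rw [norm_kernel s δ hδ]
  rw [integral_const_mul]
  rw [Measure.integral_comp_mul_left (fun v : ℝ => ‖ghat v‖) (δ / (2 * π))]
  rw [abs_of_pos (inv_pos.mpr ha), smul_eq_mul, ← mul_assoc, mul_inv_cancel₀ ha.ne', one_mul]
  rfl

lemma bumpAt_continuous (s δ : ℝ) : Continuous (bumpAt s δ) := by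
  unfold bumpAt
  exact bump0.continuous.comp (by fun_prop)

lemma bumpAt_nonneg (s δ u : ℝ) : 0 ≤ bumpAt s δ u := bump0.nonneg

lemma bumpAt_le_one (s δ u : ℝ) : bumpAt s δ u ≤ 1 := bump0.le_one

lemma bumpAt_eq_one (s δ : ℝ) (hδ : 0 < δ) {u : ℝ} (hu : u ∈ Set.Icc (s - δ) (s + δ)) :
    bumpAt s δ u = 1 := by
  unfold bumpAt
  apply bump0.one_of_mem_closedBall
  rw [mem_closedBall_zero_iff, Real.norm_eq_abs, abs_div, abs_of_pos hδ, div_le_iff₀ hδ]
  show |u - s| ≤ 1 * δ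
  rw [one_mul, abs_le]
  constructor <;> linarith [hu.1, hu.2]

lemma bumpAt_eq_zero (s δ : ℝ) (hδ : 0 < δ) {u : ℝ}
    (hu : u ∉ Set.Icc (s - 2 * δ) (s + 2 * δ)) : bumpAt s δ u = 0 := by
  unfold bumpAt
  apply bump0.zero_of_le_dist
  rw [dist_zero_right, Real.norm_eq_abs, abs_div, abs_of_pos hδ, le_div_iff₀ hδ]
  show 2 * δ ≤ |u - s|
  by_contra h
  rw [not_le, abs_lt] at h
  exact hu ⟨by linarith [h.1], by linarith [h.2]⟩

/-- The Fourier integral of the kernel is the bump. -/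
lemma integral_kernel (s δ : ℝ) (hδ : 0 < δ) (u : ℝ) :
    ∫ t : ℝ, kernel s δ t * Complex.exp (Complex.I * ((t * u : ℝ) : ℂ)) =
      ((bumpAt s δ u : ℝ) : ℂ) := by
  have ha : 0 < δ / (2 * π) := by positivity
  have hpi : (0 : ℝ) < π := Real.pi_pos
  set a : ℝ := δ / (2 * π) with ha_def
  set w : ℝ := (u - s) / δ with hw_def
  have key : ∀ t : ℝ, kernel s δ t * Complex.exp (Complex.I * ((t * u : ℝ) : ℂ)) =
      (a : ℂ) * (fun v : ℝ => ghat v * Complex.exp (Complex.I * ((2 * π * (v * w) : ℝ) : ℂ)))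
        (a * t) := by
    intro t
    simp only [kernel]
    rw [mul_assoc, mul_assoc, ← Complex.exp_add]
    congr 3
    rw [← mul_neg, ← mul_add]
    congr 1
    rw [← Complex.ofReal_neg, ← Complex.ofReal_add]
    congr 1
    rw [hw_def, ha_def]
    field_simp
    ring
  simp_rw [key]
  rw [integral_const_mul]
  rw [Measure.integral_comp_mul_left
    (fun v : ℝ => ghat v * Complex.exp (Complex.I * ((2 * π * (v * w) : ℝ) : ℂ))) a]
  rw [integral_ghat w, abs_of_pos (inv_pos.mpr ha)]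
  rw [Complex.real_smul, ← mul_assoc, ← Complex.ofReal_mul, mul_inv_cancel₀ ha.ne',
    Complex.ofReal_one, one_mul]
  rfl

/-- **Package B (kernel).** There is a universal constant `C₀` such that for every centre `s`
and width `δ > 0` there are a continuous integrable `f : ℝ → ℂ` with `∫ ‖f‖ ≤ C₀` and a
continuous real bump `F`, `0 ≤ F ≤ 1`, `F = 1` on `[s - δ, s + δ]`, `F = 0` off
`[s - 2δ, s + 2δ]`, with `∫ f t * exp (I * (t * u)) dt = F u` for every real `u`. -/
theorem exists_kernel :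
    ∃ C₀ : ℝ, 0 ≤ C₀ ∧ ∀ s δ : ℝ, 0 < δ →
      ∃ (f : ℝ → ℂ) (F : ℝ → ℝ), Continuous f ∧ Integrable f ∧ (∫ t : ℝ, ‖f t‖) ≤ C₀ ∧
        Continuous F ∧ (∀ u, 0 ≤ F u) ∧ (∀ u, F u ≤ 1) ∧
        (∀ u ∈ Set.Icc (s - δ) (s + δ), F u = 1) ∧
        (∀ u, u ∉ Set.Icc (s - 2 * δ) (s + 2 * δ) → F u = 0) ∧
        ∀ u : ℝ, ∫ t : ℝ, f t * Complex.exp (Complex.I * ((t * u : ℝ) : ℂ)) = ((F u : ℝ) : ℂ) := by
  refine ⟨kernelConst, integral_nonneg fun _ => norm_nonneg _, fun s δ hδ => ?_⟩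
  exact ⟨kernel s δ, bumpAt s δ, kernel_continuous s δ, kernel_integrable s δ hδ,
    (integral_norm_kernel s δ hδ).le, bumpAt_continuous s δ, bumpAt_nonneg s δ,
    bumpAt_le_one s δ, fun u hu => bumpAt_eq_one s δ hδ hu,
    fun u hu => bumpAt_eq_zero s δ hδ hu, integral_kernel s δ hδ⟩

/-- The bump with centre `s` and width `δ` as a bounded continuous complex function. -/
noncomputable def bumpBCF (s δ : ℝ) : BoundedContinuousFunction ℝ ℂ :=
  BoundedContinuousFunction.ofNormedAddCommGroup (fun u => ((bumpAt s δ u : ℝ) : ℂ))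
    (Complex.continuous_ofReal.comp (bumpAt_continuous s δ)) 1 (fun u => by
      rw [Complex.norm_real, Real.norm_of_nonneg (bumpAt_nonneg s δ u)]
      exact bumpAt_le_one s δ u)

lemma bumpBCF_apply (s δ u : ℝ) : bumpBCF s δ u = ((bumpAt s δ u : ℝ) : ℂ) := rfl

lemma norm_bumpBCF_apply_le (s δ u : ℝ) : ‖bumpBCF s δ u‖ ≤ 1 := by
  rw [bumpBCF_apply, Complex.norm_real, Real.norm_of_nonneg (bumpAt_nonneg s δ u)]
  exact bumpAt_le_one s δ u

/-- **Package B, assembly shape.** The same kernel, with the bump packaged as a bounded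
continuous complex function `F` (this is the shape consumed by the S0112 assembly). The
extra clauses record that `f` is continuous and that `F` is real with values in `[0, 1]`. -/
theorem exists_kernel_bcf' :
    ∃ C₀ : ℝ, 0 ≤ C₀ ∧ ∀ s δ : ℝ, 0 < δ →
      ∃ f : ℝ → ℂ, Integrable f ∧ (∫ t : ℝ, ‖f t‖) ≤ C₀ ∧
        ∃ F : BoundedContinuousFunction ℝ ℂ,
          (∀ u, F u = ∫ t : ℝ, f t * Complex.exp (Complex.I * ((t * u : ℝ) : ℂ))) ∧
          (∀ u, ‖F u‖ ≤ 1) ∧ (∀ u ∈ Set.Icc (s - δ) (s + δ), F u = 1) ∧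
          (∀ u, u ∉ Set.Icc (s - 2 * δ) (s + 2 * δ) → F u = 0) ∧
          Continuous f ∧ (∀ u, (F u).im = 0 ∧ 0 ≤ (F u).re ∧ (F u).re ≤ 1) := by
  refine ⟨kernelConst, integral_nonneg fun _ => norm_nonneg _, fun s δ hδ => ?_⟩
  refine ⟨kernel s δ, kernel_integrable s δ hδ, (integral_norm_kernel s δ hδ).le,
    bumpBCF s δ, fun u => ?_, norm_bumpBCF_apply_le s δ, fun u hu => ?_, fun u hu => ?_,
    kernel_continuous s δ, fun u => ?_⟩
  · rw [bumpBCF_apply, integral_kernel s δ hδ u]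
  · rw [bumpBCF_apply, bumpAt_eq_one s δ hδ hu, Complex.ofReal_one]
  · rw [bumpBCF_apply, bumpAt_eq_zero s δ hδ hu, Complex.ofReal_zero]
  · rw [bumpBCF_apply]
    exact ⟨Complex.ofReal_im _, by simpa using bumpAt_nonneg s δ u,
      by simpa using bumpAt_le_one s δ u⟩

/-- **Package B, exact assembly shape** (as posted by the S0112 coordinator). -/
theorem exists_kernel_bcf :
    ∃ C₀ : ℝ, 0 ≤ C₀ ∧ ∀ s δ : ℝ, 0 < δ →
      ∃ f : ℝ → ℂ, Integrable f ∧ (∫ t : ℝ, ‖f t‖) ≤ C₀ ∧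
        ∃ F : BoundedContinuousFunction ℝ ℂ,
          (∀ u, F u = ∫ t : ℝ, f t * Complex.exp (Complex.I * ((t * u : ℝ) : ℂ))) ∧
          (∀ u, ‖F u‖ ≤ 1) ∧ (∀ u ∈ Set.Icc (s - δ) (s + δ), F u = 1) ∧
          (∀ u, u ∉ Set.Icc (s - 2 * δ) (s + 2 * δ) → F u = 0) := by
  obtain ⟨C₀, hC₀, h⟩ := exists_kernel_bcf'
  refine ⟨C₀, hC₀, fun s δ hδ => ?_⟩
  obtain ⟨f, hf, hfC, F, h1, h2, h3, h4, -, -⟩ := h s δ hδ
  exact ⟨f, hf, hfC, F, h1, h2, h3, h4⟩

end Crest.Agent.Helper4.S0112
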